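import Crest.Agent.R163.Q3.D.S0.P1_0
import Crest.Agent.R163.Q3.D.S0.P1_1

set_option autoImplicit false
set_option maxRecDepth 100000
set_option linter.all false
set_option Elab.async false

namespace Crest.Agent.R163.S0

theorem o1_7 : Ok par f7 Box3.unit C1 :=
  (Ok.part 497323236409786531510942101174912078730601302049042832574283195023159111150156275253311 p1_7_6 (Ok.split 0 (Ok.part 283485779528819032735378450875024299638114498101237 p1_7_4 (Ok.split 1 p1_7_3 (Ok.part 7427671816538135840149209090 p1_7_2 (Ok.split 0 p1_7_0 p1_7_1)))) p1_7_5))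
theorem o1_6 : Ok par f6 Box3.unit C1 :=
  (Ok.part 497323236409674239885546777402710445196725004191017466795103476878246232920758671544238 p1_6_22 (Ok.split 1 (Ok.part 170224260250443677061052322249324880007 p1_6_12 (Ok.split 0 (Ok.part 273445829250414810589774951405718644275019775 p1_6_2 (Ok.split 1 p1_6_0 p1_6_1)) (Ok.part 11412667836427079218762742232213325067993254014 p1_6_11 (Ok.split 1 (Ok.part 1351929028485187867220738179071 p1_6_3 p1_6_4) (Ok.part 2535276651247409905968598749760 p1_6_10 (Ok.split 0 (Ok.part 783645026876965375 p1_6_8 (Ok.split 1 p1_6_7 (Ok.part 2198364684416 p1_6_5 p1_6_6))) p1_6_9)))))) (Ok.part 25108406941546723011402069609481670087870889085201924753507 p1_6_21 (Ok.split 0 p1_6_20 (Ok.part 618969982171615561158492225 p1_6_19 (Ok.split 1 (Ok.part 35186519572480 p1_6_17 (Ok.split 0 (Ok.part 2474308034619 p1_6_15 (Ok.split 1 p1_6_13 p1_6_14)) p1_6_16)) p1_6_18))))))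
theorem o1_5 : Ok par f5 Box3.unit C1 :=
  p1_5_0
theorem o1_4 : Ok par f4 Box3.unit C1 :=
  (Ok.part 248661618375514866655880163599568658180900570698202400864559245196361640763391316245887 p1_4_10 (Ok.split 1 p1_4_9 (Ok.part 123091615551488 p1_4_8 (Ok.split 1 (Ok.part 52915070822236 p1_4_2 (Ok.split 0 p1_4_0 p1_4_1)) (Ok.part 12437420245056 p1_4_7 (Ok.split 0 (Ok.part 1433664510 p1_4_5 (Ok.split 1 p1_4_3 p1_4_4)) p1_4_6))))))
theorem o1_3 : Ok par f3 Box3.unit C1 :=
  (Ok.part 497078842615648042423100178213015892427966596669270521039060997735255395484221906616319 p1_3_0 p1_3_1)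
theorem o1_2 : Ok par f2 Box3.unit C1 :=
  (Ok.part 497323236409786641750146949437157946656895874027266839379018179738155226728863530861247 p1_2_2 (Ok.split 0 p1_2_0 p1_2_1))
theorem o1_1 : Ok par f1 Box3.unit C1 :=
  p1_1_0
theorem o1_0 : Ok par f0 Box3.unit C1 :=
  (Ok.part 252471070482577719563843857640355267725048324779584550986172120032962765273438697291775 p1_0_0 p1_0_1)

theorem pt1 : PtAll par C1 :=
  PtAll.of_okD hw (OkD.cover [f0.dom,f1.dom,f2.dom,f3.dom,f4.dom,f5.dom,f6.dom,f7.dom]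
    (.split 0 (.split 0 (.leaf 0) (.split 1 (.leaf 1) (.leaf 2))) (.split 1 (.split 0 (.leaf 3) (.leaf 4)) (.split 0 (.leaf 5) (.split 1 (.leaf 6) (.leaf 7)))))
    (by decide +kernel)
    (List.forall_mem_cons.2 ⟨OkD.of_ok o1_0, (List.forall_mem_cons.2 ⟨OkD.of_ok o1_1, (List.forall_mem_cons.2 ⟨OkD.of_ok o1_2, (List.forall_mem_cons.2 ⟨OkD.of_ok o1_3, (List.forall_mem_cons.2 ⟨OkD.of_ok o1_4, (List.forall_mem_cons.2 ⟨OkD.of_ok o1_5, (List.forall_mem_cons.2 ⟨OkD.of_ok o1_6, (List.forall_mem_cons.2 ⟨OkD.of_ok o1_7, (fun _ h => nomatch h)⟩)⟩)⟩)⟩)⟩)⟩)⟩)⟩))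

end Crest.Agent.R163.S0
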